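import Vale.Agent.P254.SP.IfaceB

/-!
# P254, block SP: `StmtC4` of `SP/IfaceB.lean` (helper888)
-/

open MeasureTheory Matrix Finset

noncomputable section

namespace Vale.Agent.P254.SP.H888

open Vale.Agent.P227.M Vale.Agent.P254.S

variable {n : ℕ} {U : E n → Matrix (Fin n) (Fin n) ℝ} {s : E n → Fin n → ℝ}

/-- frame coordinates of `B v` -/
theorem frame_mulVec {W B : Matrix (Fin n) (Fin n) ℝ} (hW : W * Wᵀ = 1) (v : Fin n → ℝ) :
    Wᵀ *ᵥ (B *ᵥ v) = (Wᵀ * B * W) *ᵥ (Wᵀ *ᵥ v) := by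
  rw [mulVec_mulVec, mulVec_mulVec, Matrix.mul_assoc (Wᵀ * B) W Wᵀ, hW, Matrix.mul_one]

theorem uu_symm {k : Fin n} {z : E n} (h : (pdM k (GG U s) z).IsSymm) (i j : Fin n) :
    uu U s k z i j = uu U s k z j i := by
  have h1 : (uu U s k z)ᵀ = uu U s k z := by
    unfold uu
    rw [transpose_mul, transpose_mul, transpose_transpose, h.eq, Matrix.mul_assoc]
  exact congrFun (congrFun h1.symm i) j

theorem xx_pd (hU : ∀ z, U z * (U z).transpose = 1) (k : Fin n) (v : Fin n → ℝ) (z : E n)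
    (i : Fin n) : ((U z)ᵀ *ᵥ (pdM k (GG U s) z *ᵥ v)) i = ∑ j, uu U s k z i j * xx U v z j := by
  rw [frame_mulVec (hU z)]
  rfl

theorem col_Fa (hU : ∀ z, U z * (U z).transpose = 1) (k : Fin n) (e : Fin n → ℝ) (z : E n)
    (i : Fin n) : col U (Fa U s k) e z i
      = ∑ j, uu U s k z i j * xx U e z j - xx U ((AA U s k).mulVec e) z i := by
  rw [← xx_pd hU]
  unfold col xx Fa
  rw [sub_mulVec, mulVec_sub]
  rfl

theorem col_ZZ (hU : ∀ z, U z * (U z).transpose = 1) (e : Fin n → ℝ) (q : ℝ)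
    (hK : (KK U s).mulVec e = q • e) (z : E n) (i : Fin n) : col U (ZZ U s) e z i
      = ∑ k, ∑ j, uu U s k z i j * xx U ((AA U s k).mulVec e) z j - q * xx U e z i := by
  have h1 : (ZZ U s z).mulVec e
      = (∑ k, pdM k (GG U s) z *ᵥ ((AA U s k).mulVec e)) - q • e := by
    rw [← hK]
    unfold ZZ KK Fa
    rw [sum_mulVec, sum_mulVec, ← Finset.sum_sub_distrib]
    refine Finset.sum_congr rfl fun k _ => ?_
    rw [← mulVec_mulVec, ← mulVec_mulVec, sub_mulVec]
  unfold col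
  rw [h1, mulVec_sub, Pi.sub_apply, mulVec_smul, Pi.smul_apply, smul_eq_mul]
  congr 1
  rw [mulVec_sum, Finset.sum_apply]
  exact Finset.sum_congr rfl fun k _ => xx_pd hU k _ z i

/-- **SP-C4** -/
theorem stmtC4 : StmtC4 := by
  intro n U s hU p e q _ hD hK z
  simp only [col_Fa hU, col_ZZ hU e q hK]
  have hsw : ∀ k : Fin n,
      ∑ i, ∑ j, p (s z i) * xx U ((AA U s k).mulVec e) z i * (uu U s k z i j * xx U e z j)
        = ∑ i, ∑ j, xx U e z i * (p (s z j) * uu U s k z i j * xx U ((AA U s k).mulVec e) z j) := by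
    intro k
    rw [Finset.sum_comm]
    refine Finset.sum_congr rfl fun i _ => Finset.sum_congr rfl fun j _ => ?_
    rw [uu_symm (hD k z) j i]
    ring
  have e1 : ∑ i, p (s z i) * xx U e z i * (q * xx U e z i
        + (∑ k, ∑ j, uu U s k z i j * xx U ((AA U s k).mulVec e) z j - q * xx U e z i))
      = ∑ k, ∑ i, ∑ j, p (s z i) * xx U e z i * (uu U s k z i j * xx U ((AA U s k).mulVec e) z j) := by
    rw [Finset.sum_comm]
    refine Finset.sum_congr rfl fun i _ => ?_
    rw [show q * xx U e z i + (∑ k, ∑ j, uu U s k z i j * xx U ((AA U s k).mulVec e) z j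
        - q * xx U e z i) = ∑ k, ∑ j, uu U s k z i j * xx U ((AA U s k).mulVec e) z j by ring,
      Finset.mul_sum]
    exact Finset.sum_congr rfl fun k _ => by rw [Finset.mul_sum]
  have e2 : ∑ k, ∑ i, p (s z i) * xx U ((AA U s k).mulVec e) z i
        * (∑ j, uu U s k z i j * xx U e z j - xx U ((AA U s k).mulVec e) z i)
      = ∑ k, ∑ i, ∑ j, p (s z i) * xx U ((AA U s k).mulVec e) z i * (uu U s k z i j * xx U e z j)
        - ∑ k, ∑ i, p (s z i) * xx U ((AA U s k).mulVec e) z i ^ 2 := by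
    rw [← Finset.sum_sub_distrib]
    refine Finset.sum_congr rfl fun k _ => ?_
    rw [← Finset.sum_sub_distrib]
    refine Finset.sum_congr rfl fun i _ => ?_
    rw [mul_sub, Finset.mul_sum]
    ring
  have e3 : ∑ k, ∑ i, xx U e z i * ∑ j, (p (s z j) - p (s z i)) * uu U s k z i j
        * xx U ((AA U s k).mulVec e) z j
      = ∑ k, ∑ i, ∑ j, xx U e z i * (p (s z j) * uu U s k z i j * xx U ((AA U s k).mulVec e) z j)
        - ∑ k, ∑ i, ∑ j, p (s z i) * xx U e z i
          * (uu U s k z i j * xx U ((AA U s k).mulVec e) z j) := by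
    rw [← Finset.sum_sub_distrib]
    refine Finset.sum_congr rfl fun k _ => ?_
    rw [← Finset.sum_sub_distrib]
    refine Finset.sum_congr rfl fun i _ => ?_
    rw [Finset.mul_sum, ← Finset.sum_sub_distrib]
    exact Finset.sum_congr rfl fun j _ => by ring
  rw [e1, e2, e3, Finset.sum_congr rfl fun k _ => hsw k]
  ring

end Vale.Agent.P254.SP.H888
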